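import Vale.Agent.P315.OT.StratHypZ
import Vale.Agent.P315.OT.SizesPar
import Vale.Agent.P315.OT.TimeFin
import Vale.Agent.P315.OT.NumOk
import Vale.Agent.P315.OT.Root
import Vale.Agent.P315.OT.Star
import Vale.Agent.P315.OT.H71.Atoms
import Vale.Agent.P315.OT.CurOk
import Vale.Agent.P315.OT.Solve2

/-!
P315, one-scale track: the final assembly.
-/

set_option autoImplicit false

namespace Vale.Agent.P315.OT

open Vale.Agent.P315 Vale.Agent.P315.H738
open Vale.Agent.Lib.PolyTime (esize PT)
open Vale.Agent.P315.RAM (oround absorb)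
open Vale.Agent.P315.H873 (feedP)

/-- The guarantee: the output is at least the edit distance and at most `ε n` larger. -/
def goodAdd (ε : ℝ) (x y : List ℕ) (D : ℕ) : Prop :=
  ED x y ≤ D ∧ (D : ℝ) ≤ ED x y + ε * ((max x.length y.length : ℕ) : ℝ)

theorem z_prob {e g : ℕ} (x y : List ℕ) (he : 1 ≤ e) (h : Num.Reg2 e g (max x.length y.length))
    (hN : 1 ≤ max x.length y.length) {ε : ℝ} (hε : 7 / (e : ℝ) ≤ ε) :
    2 * Nat.card (Fin (zR e g [x.length, y.length]) → Fin (zE e [x.length, y.length])) ≤
      3 * Nat.card {c : Fin (zR e g [x.length, y.length]) → Fin (zE e [x.length, y.length]) //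
        goodAdd ε x y (outS (fun T S => pkL S T) visF (otRun startS (askS (fun T S => pkL S T) visF)
          (updS (fun T S => pkL S T) visF) x y (zl e g [x.length, y.length])
          (zg e g [x.length, y.length]) (zD e g [x.length, y.length])
          (zRq e g [x.length, y.length])
          (feedP (zpre e g [x.length, y.length]) c)))} := by
  have hx : x.length ≤ max x.length y.length := le_max_left _ _
  have hy : y.length ≤ max x.length y.length := le_max_right _ _
  have hrun : RunHyp (zQ e g [x.length, y.length]) ((zQ e g [x.length, y.length]).Y y)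
      (zD e g [x.length, y.length]) (zT [x.length, y.length]) (zR e g [x.length, y.length]) :=
    Num.prm_run he h.reg hy
  have hn : 1 ≤ lvl g 4 (max x.length y.length) := by
    have := h.reg.lev1
    omega
  have hlen : max x.length y.length ≤
      (zQ e g [x.length, y.length]).len (zQ e g [x.length, y.length]).n :=
    (Num.len_ge (n := lvl g 4 (max x.length y.length)) he).le.trans
      (le_of_eq (Num.prm_len_n e _ _).symm)
  have hQok : (zQ e g [x.length, y.length]).Ok := Num.prm_ok he hn
  exact root_seeds (stmtValue stmtCur stmtStar stmtAtoms) (Q := zQ e g [x.length, y.length])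
    (Cd := stdCode (zD e g [x.length, y.length]))
    (P := stdPicker (zS [x.length, y.length]) (zT [x.length, y.length]))
    (Pb := zD e g [x.length, y.length]) (Lg := 14 * ll (max x.length y.length))
    (e3 := 8 / (bra 4 (max x.length y.length) : ℕ)) (k := 16 * e)
    (lam := Num.lam e (max x.length y.length)) (ε := ε)
    hQok (by omega) le_rfl (hx.trans hlen)
    (hy.trans hlen) (zE_pos e _) (zJ_dvd e g _) (zT_dvd e _) (Num.picker_ok h _)
    (stdCode_ok _) (Num.b1 e _ _) (Num.b2 e _ _) hrun.D_gt (Num.b4 e _ _)
    (Num.two_pN_le e _ _) (Num.lam_nonneg e _)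
    (fun c => outS (fun T S => pkL S T) visF (otRun startS (askS (fun T S => pkL S T) visF)
          (updS (fun T S => pkL S T) visF) x y (zl e g [x.length, y.length])
          (zg e g [x.length, y.length]) (zD e g [x.length, y.length])
          (zRq e g [x.length, y.length])
          (feedP (zpre e g [x.length, y.length]) c)))
    (zRq e g [x.length, y.length])
    (fun c => run_ok hrun c _)
    (Num.hval_num he h.reg (Num.value_num he h.reg le_rfl (Num.err_le h)) hε)
    (Num.heps_num he h.reg hN hε)
    (Nat.succ_pos _)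
    ((mul_le_mul_of_nonneg_left (Num.area_num he h.reg) (by norm_num)).trans
      (Num.six_le_pQ e _ _))

/-- **The one-scale algorithm.** -/
theorem ot_main (ε : ℝ) (hε : 0 < ε) : ∃ c : ℝ, 0 < c ∧ ∃ (C : ℝ) (k : ℕ) (P : Prog),
    Top.Solves P (goodAdd ε) (fun n => C * Num.bd c n) k := by
  obtain ⟨e, he⟩ := exists_nat_ge (7 / ε)
  have he1 : 1 ≤ e := by
    have : (0 : ℝ) < e := lt_of_lt_of_le (by positivity) he
    exact_mod_cast this
  have he0 : (0 : ℝ) < e := by exact_mod_cast he1
  have h7 : 7 / (e : ℝ) ≤ ε := by
    rw [div_le_iff₀ he0]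
    rw [div_le_iff₀ hε] at he
    linarith
  obtain ⟨k, hk⟩ := exists_solves2 PT_startS PT_askO PT_updO PT_outO
  set g := 2 * Num.costA k 8 with hg
  have hg2 : 2 ≤ g := by rw [hg]; unfold Num.costA; omega
  obtain ⟨c, hc, -, htime⟩ := Num.htime_num he1 k g le_rfl
  obtain ⟨cc, hcc, hsz⟩ := sizes_ok (e := e) (g := g) he1 (by omega)
  obtain ⟨N1, hN1⟩ := Num.ev_reg2 e g he1 hg2
  refine ⟨c, hc, ?_⟩
  have hgood0 : ∀ x y, goodAdd ε x y (ED x y) := fun x y =>
    ⟨le_rfl, le_add_of_nonneg_right (mul_nonneg hε.le (Nat.cast_nonneg _))⟩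
  have hYle : ∀ x y : List ℕ, zY e g [x.length, y.length] ≤ max x.length y.length + 1 := by
    intro x y
    unfold zY
    have h1 : ([x.length, y.length].getD 1 0) ≤ max x.length y.length := le_max_right _ _
    have h2 := Nat.div_le_self ([x.length, y.length].getD 1 0)
      (Num.pK (zN [x.length, y.length]) (zn g [x.length, y.length]) *
        Num.pg e (zN [x.length, y.length]) (zn g [x.length, y.length]))
    omega
  obtain ⟨C, kk, P, hP⟩ := hk (zpre e g) (zl e g) (zg e g) (zD e g) (zRq e g) (zE e) (zR e g)
    (PT_zpre e g) (PT_zl e g) (PT_zg e g) (PT_zD e g) (PT_zRq e g) (PT_zE e) (PT_zR e g)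
    (fun a => Num.pK (zN a) (zn g a)) (fun a => Num.pw e (zN a)) (zSz e g) cc cc (N1 + 1)
    (goodAdd ε) (Num.bd c) hcc (Num.bd_pos c) hgood0
    (fun x y hn => by
      have hreg := hN1 (max x.length y.length) (by omega)
      have S := hsz x.length y.length
      have F := fun cs => z_fields x y he1 hreg.reg (g := g) cs
      exact {
        e_pow := zE_pow e _
        l_le := S.l_le
        g_le := S.g_le
        D_le := S.D_le
        Q_le := S.Q_le
        e_le := S.e_le
        N_le := S.N_le
        KD_le := S.KD_le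
        Kl_le := S.Kl_le
        lw_le := S.lw_le
        S_le := S.S_le _ (hYle x y)
        pre_le := S.pre_le _ (hYle x y)
        valid := fun cs t _ => (F cs).1 t
        size := fun cs => (F cs).2.1
        sizeQ := fun cs => (F cs).2.2.1
        out_le := fun cs => (F cs).2.2.2.trans S.out_le
        prob := z_prob x y he1 hreg (by omega) h7 })
    (fun k1 => by
      obtain ⟨C0, n0, -, h⟩ := htime cc k1
      exact ⟨C0, n0, fun x y hn => h (max x.length y.length) x.length y.length
        (zY e g [x.length, y.length]) hn (le_max_left _ _) (le_max_right _ _)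
        ((hYle x y).trans (by omega))⟩)
  exact ⟨C, kk, P, hP⟩

end Vale.Agent.P315.OT
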